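import Vale.Agent.Lib.P335G.GPoincare

/-!
# P335: the switch chain mixes within `n ^ 6` steps for EVERY graphical degree vector

This is the Kannan-Tetali-Vempala conjecture in its simple undirected form, with the explicit
polynomial `p n = n ^ 6`.  The proof shows that the switch Laplacian (every switch at rate one)
has spectral gap at least `2` on the set of realizations of any degree vector.
-/

namespace Vale.Agent.Results.P335.AllDegreeSequences

open Finset Vale.Agent.Lib.P335

theorem result (n : ℕ) (hn : 4 ≤ n) (d : Fin n → ℕ) (hne : (realizations n d).Nonempty) :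
    (∀ t, n ^ 6 ≤ t → ∀ G : St n d, tvDist n d t G ≤ 1 / 4) ∧ tmix n d ≤ n ^ 6 :=
  all_mixing n hn d hne

end Vale.Agent.Results.P335.AllDegreeSequences
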