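import Vale.Agent.Lib.P335G.GPoincare

/-!
# P335: a polynomial bounds the mixing time of the switch chain for all graphical degree vectors

The Kannan-Tetali-Vempala conjecture in the form of the question: there is a polynomial `p` with
`tmix d ≤ p n` for every `n ≥ 4` and every graphical degree vector `d`.
-/

namespace Vale.Agent.Results.P335.PolynomialBound

open Finset Vale.Agent.Lib.P335

theorem result :
    ∃ p : Polynomial ℕ, ∀ n : ℕ, 4 ≤ n → ∀ d : Fin n → ℕ,
      (∃ G : SimpleGraph (Fin n), G ∈ realizations n d) →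
        (∃ t : ℕ, ∀ G : St n d, tvDist n d t G ≤ 1 / 4) ∧ tmix n d ≤ p.eval n := by
  refine ⟨Polynomial.X ^ 6, ?_⟩
  intro n hn d hne
  obtain ⟨h1, h2⟩ := all_mixing n hn d hne
  refine ⟨⟨n ^ 6, h1 _ le_rfl⟩, ?_⟩
  simpa using h2

end Vale.Agent.Results.P335.PolynomialBound
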