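import Vale.Agent.Lib.P335.GFinal

/-!
# P335: the switch chain mixes within `n ^ 6` steps for every split degree vector

A degree vector `d` on `n` vertices is split when some vertex set `U` satisfies the Erdos-Gallai
inequality with equality: `sum_{u in U} d u = |U| (|U| - 1) + sum_{w not in U} d w`.  Then every
realization is a clique on `U`, an independent set on the complement and an arbitrary bipartite
graph with prescribed degrees in between, so these vectors encode all bipartite degree sequences.
-/

namespace Vale.Agent.Results.P335.SplitSequences

open Finset Vale.Agent.Lib.P335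

theorem result (n : ℕ) (hn : 4 ≤ n) (d : Fin n → ℕ) (U : Finset (Fin n))
    (hne : (realizations n d).Nonempty)
    (hU : ∑ u ∈ U, d u = U.card * (U.card - 1) + ∑ w ∈ Uᶜ, d w) :
    (∀ t, n ^ 6 ≤ t → ∀ G : St n d, tvDist n d t G ≤ 1 / 4) ∧ tmix n d ≤ n ^ 6 :=
  split_mixing n hn d U hne hU

end Vale.Agent.Results.P335.SplitSequences
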